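import Vale.Agent.Lib.P028A.Defs

/-! P028: counting lemma for the overlaps (all real shifts). -/

namespace Vale.Agent.P028A

open Finset

noncomputable section

/-- indicator of `nd t < θ` -/
def hh (θ t : ℝ) : ℝ := if nd t < θ then 1 else 0

theorem nd_add_int (t : ℝ) (n : ℤ) : nd (t + n) = nd t := by
  unfold nd
  rw [round_add_intCast]
  push_cast
  congr 1; ring

theorem hh_add_int (θ t : ℝ) (n : ℤ) : hh θ (t + n) = hh θ t := by
  unfold hh; rw [nd_add_int]

theorem hh_nonneg (θ t : ℝ) : 0 ≤ hh θ t := by unfold hh; split_ifs <;> norm_num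

theorem hh_le_one (θ t : ℝ) : hh θ t ≤ 1 := by unfold hh; split_ifs <;> norm_num

theorem sum_range_mul' (f : ℕ → ℝ) (g r : ℕ) :
    ∑ b ∈ range (g * r), f b = ∑ j ∈ range g, ∑ i ∈ range r, f (j * r + i) := by
  induction g with
  | zero => simp
  | succ g ih =>
    rw [Nat.succ_mul, sum_range_add, ih, sum_range_succ]

/-- integers in an open interval -/
theorem card_int_le (s : Finset ℤ) (a b : ℝ) (hab : a ≤ b) (h : ∀ k ∈ s, a < (k:ℝ) ∧ (k:ℝ) < b) :
    (s.card : ℝ) ≤ b - a + 1 := by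
  have hsub : s ⊆ Finset.Icc (⌊a⌋ + 1) (⌈b⌉ - 1) := by
    intro k hk
    obtain ⟨h1, h2⟩ := h k hk
    rw [Finset.mem_Icc]
    constructor
    · have : ⌊a⌋ < k := Int.floor_lt.2 h1
      omega
    · have : k < ⌈b⌉ := Int.lt_ceil.2 h2
      omega
  have h1 := card_le_card hsub
  rw [Int.card_Icc] at h1
  have h2 : (⌈b⌉ : ℝ) < b + 1 := Int.ceil_lt_add_one b
  have h3 : a < ⌊a⌋ + 1 := Int.lt_floor_add_one a
  have h4 : ((⌈b⌉ - 1 + 1 - (⌊a⌋ + 1)).toNat : ℝ) ≤ b - a + 1 := by
    rcases le_total 0 (⌈b⌉ - 1 + 1 - (⌊a⌋ + 1)) with h5 | h5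
    · have : (((⌈b⌉ - 1 + 1 - (⌊a⌋ + 1)).toNat : ℤ) : ℝ) = ((⌈b⌉ - 1 + 1 - (⌊a⌋ + 1) : ℤ) : ℝ) := by
        rw [Int.toNat_of_nonneg h5]
      rw [Int.cast_natCast] at this
      rw [this]; push_cast; linarith
    · rw [Int.toNat_of_nonpos h5]; simp; linarith
  calc (s.card : ℝ) ≤ ((⌈b⌉ - 1 + 1 - (⌊a⌋ + 1)).toNat : ℝ) := by exact_mod_cast h1
    _ ≤ _ := h4

/-- coprime case -/
theorem count_coprime {θ : ℝ} (hθ : 0 ≤ θ) (t : ℝ) {q r : ℕ} (hr : 0 < r)
    (hqr : Nat.Coprime q r) :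
    ∑ i ∈ range r, hh θ (t + q * i / r) ≤ 2 * θ * r + 1 := by
  classical
  set s := (range r).filter (fun i : ℕ => nd (t + q * i / r) < θ) with hs
  have e1 : ∑ i ∈ range r, hh θ (t + q * i / r) = (s.card : ℝ) := by
    unfold hh
    rw [← sum_filter, sum_const, nsmul_eq_mul, mul_one]
  rw [e1]
  have hr' : (0:ℝ) < r := by exact_mod_cast hr
  set κ : ℕ → ℤ := fun i => (q * i : ℤ) - r * round (t + q * i / r) with hκ
  have hinj : Set.InjOn κ s := by
    intro i hi j hj hij
    have hi2 : i < r := by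
      have := (mem_filter.1 hi).1; rwa [mem_range] at this
    have hj2 : j < r := by
      have := (mem_filter.1 hj).1; rwa [mem_range] at this
    have h1 : (q * i : ℤ) - q * j =
        r * (round (t + q * i / r) - round (t + q * j / r)) := by
      have : κ i = κ j := hij
      simp only [hκ] at this
      linarith
    have h2 : (r : ℤ) ∣ (q : ℤ) * ((i:ℤ) - j) := ⟨_, by rw [← h1]; ring⟩
    have h3 : (r : ℤ) ∣ ((i:ℤ) - j) := by
      refine IsCoprime.dvd_of_dvd_mul_left ?_ h2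
      exact (Nat.isCoprime_iff_coprime.2 hqr).symm
    have h4 : ((i:ℤ) - j) = 0 := by
      apply Int.eq_zero_of_abs_lt_dvd h3
      rw [abs_lt]; constructor <;> omega
    omega
  have hcard : s.card = (s.image κ).card := (card_image_of_injOn hinj).symm
  rw [hcard]
  have := card_int_le (s.image κ) (r * (-θ - t)) (r * (θ - t))
    (mul_le_mul_of_nonneg_left (by linarith) hr'.le) ?_
  · refine this.trans (le_of_eq ?_); ring
  · intro k hk
    obtain ⟨i, hi, rfl⟩ := mem_image.1 hk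
    have h1 : nd (t + q * i / r) < θ := (mem_filter.1 hi).2
    unfold nd at h1
    rw [abs_lt] at h1
    have e2 : ((κ i : ℤ) : ℝ) = r * (t + q * i / r - round (t + q * i / r) - t) := by
      simp only [hκ]; push_cast; field_simp; ring
    rw [e2]
    constructor
    · exact mul_lt_mul_of_pos_left (by linarith) hr'
    · exact mul_lt_mul_of_pos_left (by linarith) hr'

/-- general case -/
theorem count_le {θ : ℝ} (hθ : 0 ≤ θ) (t : ℝ) {q r : ℕ} (hr : 0 < r) :
    ∑ b ∈ range r, hh θ (t + q * b / r) ≤ 2 * θ * r + Nat.gcd q r := by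
  set g := Nat.gcd q r with hg
  have hg0 : 0 < g := Nat.gcd_pos_of_pos_right _ hr
  obtain ⟨q', hq'⟩ : g ∣ q := Nat.gcd_dvd_left q r
  obtain ⟨r', hr'⟩ : g ∣ r := Nat.gcd_dvd_right q r
  have hr'0 : 0 < r' := by
    rcases Nat.eq_zero_or_pos r' with h | h
    · rw [h, mul_zero] at hr'; omega
    · exact h
  have hcop : Nat.Coprime q' r' := by
    have h1 := Nat.coprime_div_gcd_div_gcd (m := q) (n := r) (by rw [← hg]; exact hg0)
    rw [← hg] at h1
    have e1 : q / g = q' := by rw [hq']; exact Nat.mul_div_cancel_left _ hg0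
    have e2 : r / g = r' := by rw [hr']; exact Nat.mul_div_cancel_left _ hg0
    rwa [e1, e2] at h1
  have hgR : (0:ℝ) < g := by exact_mod_cast hg0
  have hrR : (0:ℝ) < r' := by exact_mod_cast hr'0
  have e3 : ∀ j i : ℕ, hh θ (t + q * ((j * r' + i : ℕ) : ℝ) / r) = hh θ (t + q' * i / r') := by
    intro j i
    have : t + q * ((j * r' + i : ℕ) : ℝ) / r = t + q' * i / r' + ((q' * j : ℤ) : ℝ) := by
      rw [hq', hr']; push_cast; field_simp; ring
    rw [this, hh_add_int]
  have e4 : ∑ b ∈ range r, hh θ (t + q * b / r)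
      = g * ∑ i ∈ range r', hh θ (t + q' * i / r') := by
    have h5 : ∑ b ∈ range (g * r'), hh θ (t + q * b / r)
        = ∑ j ∈ range g, ∑ i ∈ range r', hh θ (t + q * ((j * r' + i : ℕ) : ℝ) / r) :=
      sum_range_mul' (fun b => hh θ (t + q * b / r)) g r'
    rw [← hr'] at h5
    rw [h5, sum_congr rfl fun j _ => sum_congr rfl fun i _ => e3 j i, sum_const, card_range,
      nsmul_eq_mul]
  rw [e4]
  have h6 := mul_le_mul_of_nonneg_left (count_coprime hθ t hr'0 hcop) hgR.le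
  refine h6.trans (le_of_eq ?_)
  have : (r:ℝ) = g * r' := by exact_mod_cast hr'
  rw [this]; ring

end

end Vale.Agent.P028A
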