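import Vale.Agent.Lib.P028A.Integ

/-! P028: second moment method and the criterion for full measure. -/

namespace Vale.Agent.P028A

open Finset MeasureTheory

noncomputable section

/-- sum of the overlaps -/
def gs (θ : ℕ → ℝ) (F : Finset ℕ) : ℝ :=
  ∑ r ∈ F, ∑ q ∈ F.filter (fun q => q < r), θ r * Nat.gcd q r / r

theorem ii_sum {a b : ℝ} (s : Finset ℕ) (f : ℕ → ℝ → ℝ)
    (h : ∀ i ∈ s, IntervalIntegrable (f i) volume a b) :
    IntervalIntegrable (fun x => ∑ i ∈ s, f i x) volume a b := by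
  have h1 := IntervalIntegrable.sum s h
  have e : (fun x => ∑ i ∈ s, f i x) = ∑ i ∈ s, f i := by funext x; rw [Finset.sum_apply]
  rw [e]; exact h1

theorem second_moment {γ : ℝ} {θ : ℕ → ℝ} (F : Finset ℕ) (hF : ∀ q ∈ F, 1 ≤ q)
    (h0 : ∀ q ∈ F, 0 ≤ θ q) (h1 : ∀ q ∈ F, θ q ≤ 1 / 2) :
    ∫ x in (0:ℝ)..1, (∑ q ∈ F, FF γ (θ q) q x - 2 * ∑ q ∈ F, θ q) ^ 2
      ≤ 2 * ∑ q ∈ F, θ q + 4 * gs θ F := by
  set Ψ := ∑ q ∈ F, θ q with hΨ
  set I : ℕ → ℕ → ℝ := fun q r => ∫ x in (0:ℝ)..1, FF γ (θ q) q x * FF γ (θ r) r x with hI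
  have hprod : ∀ q r, IntervalIntegrable (fun x => FF γ (θ q) q x * FF γ (θ r) r x) volume 0 1 :=
    fun q r => ii (f := fun x => FF γ (θ q) q x * FF γ (θ r) r x) ((measurable_FF γ (θ q) q).mul (measurable_FF γ (θ r) r)) 1 (fun x => by
      rw [abs_of_nonneg (mul_nonneg (FF_nonneg _ _ _ _) (FF_nonneg _ _ _ _))]
      exact mul_le_one₀ (FF_le_one _ _ _ _) (FF_nonneg _ _ _ _) (FF_le_one _ _ _ _)) _ _
  have hone : ∀ q, IntervalIntegrable (fun x => FF γ (θ q) q x) volume 0 1 :=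
    fun q => ii (measurable_FF γ (θ q) q) 1 (fun x => hh_abs _ _) _ _
  have hrow : ∀ q, IntervalIntegrable (fun x => ∑ r ∈ F, FF γ (θ q) q x * FF γ (θ r) r x)
      volume 0 1 := fun q =>
    ii_sum F (fun r x => FF γ (θ q) q x * FF γ (θ r) r x) fun r _ => hprod q r
  have hall : IntervalIntegrable (fun x => ∑ q ∈ F, ∑ r ∈ F, FF γ (θ q) q x * FF γ (θ r) r x)
      volume 0 1 :=
    ii_sum F (fun q x => ∑ r ∈ F, FF γ (θ q) q x * FF γ (θ r) r x) fun q _ => hrow q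
  have hlin : IntervalIntegrable (fun x => 4 * Ψ * ∑ q ∈ F, FF γ (θ q) q x) volume 0 1 :=
    (ii_sum F (fun q x => FF γ (θ q) q x) fun q _ => hone q).const_mul _
  have e1 : ∫ x in (0:ℝ)..1, (∑ q ∈ F, FF γ (θ q) q x - 2 * Ψ) ^ 2
      = ∑ q ∈ F, ∑ r ∈ F, I q r - 4 * Ψ * ∑ q ∈ F, (∫ x in (0:ℝ)..1, FF γ (θ q) q x)
        + 4 * Ψ ^ 2 := by
    have hpt : (fun x => (∑ q ∈ F, FF γ (θ q) q x - 2 * Ψ) ^ 2)
        = fun x => (∑ q ∈ F, ∑ r ∈ F, FF γ (θ q) q x * FF γ (θ r) r x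
          - 4 * Ψ * ∑ q ∈ F, FF γ (θ q) q x) + 4 * Ψ ^ 2 := by
      funext x
      rw [← sum_mul_sum]
      ring
    rw [hpt, intervalIntegral.integral_add, intervalIntegral.integral_sub,
      intervalIntegral.integral_finsetSum, intervalIntegral.integral_const_mul,
      intervalIntegral.integral_finsetSum, intervalIntegral.integral_const]
    · simp only [sub_zero, one_smul, hI]
      congr 2
      exact sum_congr rfl fun q _ => intervalIntegral.integral_finsetSum fun r _ => hprod q r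
    · exact fun q _ => hone q
    · exact fun q _ => hrow q
    · exact hall
    · exact hlin
    · exact hall.sub hlin
    · exact intervalIntegrable_const
  have e2 : ∑ q ∈ F, (∫ x in (0:ℝ)..1, FF γ (θ q) q x) = 2 * Ψ := by
    rw [hΨ, mul_sum]
    exact sum_congr rfl fun q hq => integral_FF (h0 q hq) (h1 q hq) (hF q hq)
  have hsym : ∀ q r, I q r = I r q := by
    intro q r
    simp only [hI]
    congr 1
    funext x
    ring
  have hb : ∀ q ∈ F, ∀ r ∈ F, I q r ≤ 4 * θ q * θ r + (if q = r then 2 * θ q else 0)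
      + (if q < r then 2 * (θ r * Nat.gcd q r / r) else 0)
      + (if r < q then 2 * (θ q * Nat.gcd r q / q) else 0) := by
    intro q hq r hr
    rcases lt_trichotomy q r with h | h | h
    · rw [if_neg h.ne, if_pos h, if_neg (by omega)]
      have := overlap (γ := γ) (h0 q hq) (h0 r hr) (h1 r hr) q (hF r hr)
      refine this.trans (le_of_eq ?_)
      ring
    · subst h
      rw [if_pos rfl, if_neg (lt_irrefl q)]
      have e3 : I q q = 2 * θ q := by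
        simp only [hI]
        rw [← integral_FF (γ := γ) (h0 q hq) (h1 q hq) (hF q hq)]
        congr 1
        funext x
        exact FF_sq _ _ _ _
      rw [e3]
      have := mul_nonneg (h0 q hq) (h0 q hq)
      linarith
    · rw [if_neg h.ne', if_neg (by omega), if_pos h, hsym]
      have := overlap (γ := γ) (h0 r hr) (h0 q hq) (h1 q hq) r (hF q hq)
      refine this.trans (le_of_eq ?_)
      ring
  have h2 : ∑ q ∈ F, ∑ r ∈ F, I q r ≤ 4 * Ψ ^ 2 + 2 * Ψ + 4 * gs θ F := by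
    refine (sum_le_sum fun q hq => sum_le_sum fun r hr => hb q hq r hr).trans (le_of_eq ?_)
    simp only [sum_add_distrib]
    have a1 : ∑ q ∈ F, ∑ r ∈ F, 4 * θ q * θ r = 4 * Ψ ^ 2 := by
      rw [hΨ, sq, sum_mul_sum, mul_sum]
      refine sum_congr rfl fun q _ => ?_
      rw [mul_sum]
      exact sum_congr rfl fun r _ => by ring
    have a2 : ∑ q ∈ F, ∑ r ∈ F, (if q = r then 2 * θ q else 0) = 2 * Ψ := by
      rw [hΨ, mul_sum]
      refine sum_congr rfl fun q hq => ?_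
      rw [sum_ite_eq, if_pos hq]
    have a4 : ∑ q ∈ F, ∑ r ∈ F, (if r < q then 2 * (θ q * Nat.gcd r q / q) else 0)
        = 2 * gs θ F := by
      unfold gs
      rw [mul_sum]
      refine sum_congr rfl fun q _ => ?_
      rw [sum_filter, mul_sum]
      refine sum_congr rfl fun r _ => ?_
      split_ifs <;> simp
    have a3 : ∑ q ∈ F, ∑ r ∈ F, (if q < r then 2 * (θ r * Nat.gcd q r / r) else 0)
        = 2 * gs θ F := by
      rw [sum_comm]
      exact a4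
    rw [a1, a2, a3, a4]; ring
  rw [e1, e2]
  linarith

theorem cheb {γ : ℝ} {θ : ℕ → ℝ} (F : Finset ℕ) (hF : ∀ q ∈ F, 1 ≤ q)
    (h0 : ∀ q ∈ F, 0 ≤ θ q) (h1 : ∀ q ∈ F, θ q ≤ 1 / 2) (hpos : 0 < ∑ q ∈ F, θ q) {ε : ℝ}
    (hε : ∑ q ∈ F, θ q + gs θ F ≤ ε * (∑ q ∈ F, θ q) ^ 2) :
    volume (Set.Ioc (0:ℝ) 1 ∩ {x | ∀ q ∈ F, ¬ nd (q * x - γ) < θ q}) ≤ ENNReal.ofReal ε := by
  have h2 := second_moment (γ := γ) F hF h0 h1
  set Ψ := ∑ q ∈ F, θ q with hΨ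
  have hg0 : 0 ≤ gs θ F := sum_nonneg fun r hr => sum_nonneg fun q _ => by
    have := h0 r hr
    positivity
  set S : ℝ → ℝ := fun x => ∑ q ∈ F, FF γ (θ q) q x with hS
  have hSm : Measurable S := Finset.measurable_fun_sum _ fun q _ => measurable_FF γ (θ q) q
  set μ := volume.restrict (Set.Ioc (0:ℝ) 1) with hμ
  have hint : Integrable (fun x => (S x - 2 * Ψ) ^ 2) μ := by
    have : IntervalIntegrable (fun x => (S x - 2 * Ψ) ^ 2) volume 0 1 := by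
      refine ii ((hSm.sub_const _).pow_const 2) ((F.card + 2 * Ψ) ^ 2) (fun x => ?_) _ _
      rw [abs_of_nonneg (sq_nonneg _)]
      have hS0 : 0 ≤ S x := sum_nonneg fun q _ => FF_nonneg _ _ _ _
      have hS1 : S x ≤ F.card := by
        refine (sum_le_sum fun q _ => FF_le_one _ _ _ _).trans (le_of_eq ?_)
        simp
      have h3 : (S x - 2 * Ψ) ^ 2 ≤ (F.card + 2 * Ψ) ^ 2 := by
        apply sq_le_sq'
        · linarith
        · linarith
      exact h3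
    rw [intervalIntegrable_iff_integrableOn_Ioc_of_le (by norm_num)] at this
    exact this
  have h3 := mul_meas_ge_le_integral_of_nonneg (μ := μ)
    (Filter.Eventually.of_forall fun x => sq_nonneg (S x - 2 * Ψ)) hint ((2 * Ψ) ^ 2)
  rw [intervalIntegral.integral_of_le (by norm_num)] at h2
  have h4 : (2 * Ψ) ^ 2 * μ.real {x | (2 * Ψ) ^ 2 ≤ (S x - 2 * Ψ) ^ 2} ≤ 4 * (ε * Ψ ^ 2) := by
    refine h3.trans (h2.trans ?_)
    linarith
  have h5 : μ.real {x | (2 * Ψ) ^ 2 ≤ (S x - 2 * Ψ) ^ 2} ≤ ε := by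
    have h6 : 0 < 4 * Ψ ^ 2 := by positivity
    have h7 : 4 * Ψ ^ 2 * μ.real {x | (2 * Ψ) ^ 2 ≤ (S x - 2 * Ψ) ^ 2} ≤ 4 * Ψ ^ 2 * ε := by
      linarith
    exact le_of_mul_le_mul_left h7 h6
  have hms : MeasurableSet {x | (2 * Ψ) ^ 2 ≤ (S x - 2 * Ψ) ^ 2} :=
    measurableSet_le measurable_const ((hSm.sub_const _).pow_const 2)
  have h8 : μ {x | (2 * Ψ) ^ 2 ≤ (S x - 2 * Ψ) ^ 2} ≤ ENNReal.ofReal ε := by
    rw [← ENNReal.ofReal_toReal (measure_ne_top μ {x | (2 * Ψ) ^ 2 ≤ (S x - 2 * Ψ) ^ 2})]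
    exact ENNReal.ofReal_le_ofReal h5
  rw [hμ, Measure.restrict_apply hms] at h8
  refine le_trans (measure_mono ?_) h8
  rintro x ⟨hx1, hx2⟩
  refine ⟨?_, hx1⟩
  have hS0 : S x = 0 := by
    refine sum_eq_zero fun q hq => ?_
    unfold FF hh
    rw [if_neg (hx2 q hq)]
  show (2 * Ψ) ^ 2 ≤ (S x - 2 * Ψ) ^ 2
  rw [hS0]
  exact le_of_eq (by ring)

/-- gcd-sum criterion -/
theorem criterion (γ : ℝ) (ψ θ : ℕ → ℝ) (h0 : ∀ q, 0 ≤ θ q) (h1 : ∀ q, θ q ≤ 1 / 2)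
    (hθψ : ∀ q, θ q ≤ ψ q)
    (H : ∀ (K : ℕ) (ε : ℝ), 0 < ε → ∃ F : Finset ℕ, (∀ q ∈ F, K ≤ q ∧ 1 ≤ q) ∧
      0 < ∑ q ∈ F, θ q ∧ ∑ q ∈ F, θ q + gs θ F ≤ ε * (∑ q ∈ F, θ q) ^ 2) :
    volume (W γ ψ)ᶜ = 0 := by
  -- tails
  have hA : ∀ K : ℕ, volume (Set.Ioc (0:ℝ) 1 ∩
      {x | ∀ q : ℕ, K ≤ q → 1 ≤ q → ¬ nd (q * x - γ) < ψ q}) = 0 := by
    intro K
    refine le_antisymm (ENNReal.le_of_forall_pos_le_add fun e he _ => ?_) bot_le
    obtain ⟨F, hF, hp, hs⟩ := H K e (by exact_mod_cast he)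
    have := cheb (γ := γ) F (fun q hq => (hF q hq).2) (fun q _ => h0 q) (fun q _ => h1 q) hp hs
    rw [zero_add]
    refine le_trans (measure_mono ?_) (this.trans (le_of_eq (ENNReal.ofReal_coe_nnreal)))
    rintro x ⟨hx1, hx2⟩
    exact ⟨hx1, fun q hq hlt => hx2 q (hF q hq).1 (hF q hq).2 (lt_of_lt_of_le hlt (hθψ q))⟩
  have hN0 : volume (Set.Ioc (0:ℝ) 1 ∩ (W γ ψ)ᶜ) = 0 := by
    refine measure_mono_null ?_ (measure_iUnion_null hA)
    rintro x ⟨hx1, hx2⟩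
    have hfin : {q : ℕ | 1 ≤ q ∧ nd (q * x - γ) < ψ q}.Finite := Set.not_infinite.1 hx2
    obtain ⟨K, hK⟩ := hfin.bddAbove
    rw [Set.mem_iUnion]
    refine ⟨K + 1, hx1, fun q hq1 hq2 hlt => ?_⟩
    have := hK (show q ∈ {q : ℕ | 1 ≤ q ∧ nd (q * x - γ) < ψ q} from ⟨hq2, hlt⟩)
    omega
  have hper : ∀ (x : ℝ) (n : ℤ), x ∈ W γ ψ ↔ x - n ∈ W γ ψ := by
    intro x n
    unfold W
    simp only [Set.mem_ofPred_eq]
    have : ∀ q : ℕ, nd (q * (x - n) - γ) = nd (q * x - γ) := by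
      intro q
      have e : (q:ℝ) * x - γ = (q * (x - n) - γ) + ((q * n : ℤ) : ℝ) := by push_cast; ring
      rw [e, nd_add_int]
    simp only [this]
  have hcov : (W γ ψ)ᶜ ⊆ ⋃ n : ℤ, (fun x : ℝ => x + (-(n:ℝ))) ⁻¹' (Set.Ioc (0:ℝ) 1 ∩ (W γ ψ)ᶜ) := by
    intro x hx
    rw [Set.mem_iUnion]
    refine ⟨⌈x⌉ - 1, ?_⟩
    show x + (-((⌈x⌉ - 1 : ℤ) : ℝ)) ∈ Set.Ioc (0:ℝ) 1 ∩ (W γ ψ)ᶜ
    refine ⟨?_, ?_⟩
    · have h2 := Int.le_ceil x
      have h3 := Int.ceil_lt_add_one x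
      push_cast
      constructor <;> linarith
    · intro hc
      apply hx
      rw [hper x (⌈x⌉ - 1)]
      rwa [← sub_eq_add_neg] at hc
  refine measure_mono_null hcov (measure_iUnion_null fun n => ?_)
  rw [measure_preimage_add_right]
  exact hN0

end

end Vale.Agent.P028A
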