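import Vale.Agent.Lib.P028A.Defs

/-! P028: the sets of the problem with a shift which may depend on the denominator. -/

namespace Vale.Agent.P028A

noncomputable section

/-- the set of `x` with `‖q x - γ q‖ < ψ q` for infinitely many positive integers `q` -/
def WM (γ : ℕ → ℝ) (ψ : ℕ → ℝ) : Set ℝ :=
  {x | {q : ℕ | 1 ≤ q ∧ nd (q * x - γ q) < ψ q}.Infinite}

end

end Vale.Agent.P028A
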