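import Vale.Agent.Lib.P028A.Crit

/-! P028: the criterion in terms of the number of divisors. -/

namespace Vale.Agent.P028A

open Finset MeasureTheory

noncomputable section

/-- sum of the greatest common divisors -/
theorem gcd_sum_le {r : ℕ} (s : Finset ℕ) (hs : ∀ q ∈ s, 1 ≤ q ∧ q ≤ r) (hr : 0 < r) :
    ∑ q ∈ s, Nat.gcd q r ≤ r * r.divisors.card := by
  have h1 : ∑ q ∈ s, Nat.gcd q r ≤ ∑ q ∈ Ioc 0 r, Nat.gcd q r := by
    refine sum_le_sum_of_subset fun q hq => ?_
    have := hs q hq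
    rw [mem_Ioc]; omega
  refine h1.trans ?_
  have h2 : ∀ q ∈ Ioc 0 r, Nat.gcd q r ≤ ∑ d ∈ r.divisors, (if d ∣ q then d else 0) := by
    intro q hq
    rw [mem_Ioc] at hq
    have hmem : Nat.gcd q r ∈ r.divisors := Nat.mem_divisors.2 ⟨Nat.gcd_dvd_right q r, hr.ne'⟩
    refine le_trans ?_ (single_le_sum (f := fun d => if d ∣ q then d else 0)
      (fun _ _ => Nat.zero_le _) hmem)
    show Nat.gcd q r ≤ if Nat.gcd q r ∣ q then Nat.gcd q r else 0
    rw [if_pos (Nat.gcd_dvd_left q r)]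
  refine (sum_le_sum h2).trans ?_
  rw [sum_comm]
  have h3 : ∀ d ∈ r.divisors, ∑ q ∈ Ioc 0 r, (if d ∣ q then d else 0) ≤ r := by
    intro d _
    rw [← sum_filter, sum_const, Nat.Ioc_filter_dvd_card_eq_div, smul_eq_mul]
    exact Nat.div_mul_le_self r d
  refine (sum_le_sum h3).trans (le_of_eq ?_)
  rw [sum_const, smul_eq_mul, mul_comm]

theorem gs_le {θ : ℕ → ℝ} (h0 : ∀ q, 0 ≤ θ q) (F : Finset ℕ) (hF : ∀ q ∈ F, 1 ≤ q) {T : ℝ}
    (hT : ∀ q ∈ F, (q.divisors.card : ℝ) ≤ T) : gs θ F ≤ T * ∑ q ∈ F, θ q := by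
  unfold gs
  rw [mul_sum]
  refine sum_le_sum fun r hr => ?_
  have hr0 : 0 < r := hF r hr
  have hrR : (0:ℝ) < r := by exact_mod_cast hr0
  have h1 : ∑ q ∈ F.filter (fun q => q < r), Nat.gcd q r ≤ r * r.divisors.card := by
    refine gcd_sum_le _ (fun q hq => ?_) hr0
    rw [mem_filter] at hq
    exact ⟨hF q hq.1, hq.2.le⟩
  have h2 : (∑ q ∈ F.filter (fun q => q < r), (Nat.gcd q r : ℝ)) ≤ r * r.divisors.card := by
    exact_mod_cast h1
  calc ∑ q ∈ F.filter (fun q => q < r), θ r * Nat.gcd q r / r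
      = θ r / r * ∑ q ∈ F.filter (fun q => q < r), (Nat.gcd q r : ℝ) := by
        rw [mul_sum]
        exact sum_congr rfl fun q _ => by ring
    _ ≤ θ r / r * (r * r.divisors.card) :=
        mul_le_mul_of_nonneg_left h2 (div_nonneg (h0 r) hrR.le)
    _ = θ r * r.divisors.card := by field_simp
    _ ≤ θ r * T := mul_le_mul_of_nonneg_left (hT r hr) (h0 r)
    _ = T * θ r := mul_comm _ _

/-- weight of the divisor condition -/
def wt (q : ℕ) : ℝ := q.divisors.card * (1 + (Nat.log 2 q.divisors.card : ℝ)) ^ 2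

theorem sum_inv_sq_le (n : ℕ) : ∑ j ∈ range n, 1 / (1 + (j:ℝ)) ^ 2 ≤ 2 := by
  have h : ∀ n : ℕ, ∑ j ∈ range (n + 1), 1 / (1 + (j:ℝ)) ^ 2 ≤ 2 - 1 / (1 + (n:ℝ)) := by
    intro n
    induction n with
    | zero => simp; norm_num
    | succ n ih =>
      rw [sum_range_succ]
      have h1 : 1 / (1 + ((n + 1 : ℕ) : ℝ)) ^ 2 ≤ 1 / (1 + (n:ℝ)) - 1 / (1 + ((n + 1 : ℕ) : ℝ)) := by
        push_cast
        rw [div_sub_div _ _ (by positivity) (by positivity), div_le_div_iff₀ (by positivity)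
          (by positivity)]
        nlinarith [Nat.cast_nonneg (α := ℝ) n]
      linarith
  rcases n with _ | n
  · simp
  · refine (h n).trans ?_
    have : 0 ≤ 1 / (1 + (n:ℝ)) := by positivity
    linarith

/-- divergence with the divisor weight gives good finite sets -/
theorem exists_good {θ : ℕ → ℝ} (h0 : ∀ q, 0 ≤ θ q)
    (hdiv : ¬ Summable fun q => θ q / wt q) (K : ℕ) (M : ℝ) (hM : 0 < M) :
    ∃ (j : ℕ) (F : Finset ℕ), (∀ q ∈ F, K ≤ q ∧ 1 ≤ q) ∧
      (∀ q ∈ F, (q.divisors.card : ℝ) ≤ 2 ^ (j + 1)) ∧ M * 2 ^ j < ∑ q ∈ F, θ q := by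
  by_contra hcon
  push Not at hcon
  apply hdiv
  have hw0 : ∀ q, 0 ≤ θ q / wt q := fun q => div_nonneg (h0 q) (by unfold wt; positivity)
  set K' := max K 1 with hK'
  refine summable_of_sum_le hw0 (c := ∑ q ∈ range K', θ q / wt q + 2 * M) fun s => ?_
  rw [← sum_filter_add_sum_filter_not s (fun q => q < K')]
  refine add_le_add ?_ ?_
  · refine sum_le_sum_of_subset_of_nonneg (fun q hq => ?_) fun q _ _ => hw0 q
    rw [mem_filter] at hq
    exact mem_range.2 hq.2
  · set F := s.filter (fun q => ¬ q < K') with hF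
    have hFK : ∀ q ∈ F, K ≤ q ∧ 1 ≤ q := by
      intro q hq
      have := (mem_filter.1 hq).2
      omega
    set N := F.sup (fun q => Nat.log 2 q.divisors.card) + 1 with hN
    have hmaps : ∀ q ∈ F, Nat.log 2 q.divisors.card ∈ range N := by
      intro q hq
      rw [mem_range]
      exact Nat.lt_succ_of_le (le_sup (f := fun q => Nat.log 2 q.divisors.card) hq)
    rw [← sum_fiberwise_of_maps_to hmaps]
    have hfib : ∀ j ∈ range N, ∑ q ∈ F.filter (fun q => Nat.log 2 q.divisors.card = j), θ q / wt q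
        ≤ M * (1 / (1 + (j:ℝ)) ^ 2) := by
      intro j _
      have hle := hcon j (F.filter (fun q => Nat.log 2 q.divisors.card = j))
        (fun q hq => hFK q (mem_filter.1 hq).1) (fun q hq => by
          have h1 := (mem_filter.1 hq).2
          have h2 := Nat.lt_pow_succ_log_self (b := 2) (by norm_num) q.divisors.card
          rw [h1] at h2
          exact_mod_cast h2.le)
      have hterm : ∀ q ∈ F.filter (fun q => Nat.log 2 q.divisors.card = j),
          θ q / wt q ≤ θ q * (1 / (2 ^ j * (1 + (j:ℝ)) ^ 2)) := by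
        intro q hq
        have hq1 := (mem_filter.1 hq).2
        have hq2 := (hFK q (mem_filter.1 hq).1).2
        have hc : q.divisors.card ≠ 0 := by
          rw [card_ne_zero]
          exact ⟨1, Nat.mem_divisors.2 ⟨one_dvd _, by omega⟩⟩
        have h3 : 2 ^ j ≤ q.divisors.card := by
          rw [← hq1]; exact Nat.pow_log_le_self 2 hc
        have h4 : (2:ℝ) ^ j ≤ q.divisors.card := by exact_mod_cast h3
        unfold wt
        rw [hq1, div_eq_mul_one_div]
        refine mul_le_mul_of_nonneg_left ?_ (h0 q)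
        refine one_div_le_one_div_of_le (by positivity) ?_
        exact mul_le_mul_of_nonneg_right h4 (by positivity)
      refine (sum_le_sum hterm).trans ?_
      rw [← sum_mul]
      calc (∑ q ∈ F.filter (fun q => Nat.log 2 q.divisors.card = j), θ q)
            * (1 / (2 ^ j * (1 + (j:ℝ)) ^ 2))
          ≤ (M * 2 ^ j) * (1 / (2 ^ j * (1 + (j:ℝ)) ^ 2)) :=
            mul_le_mul_of_nonneg_right hle (by positivity)
        _ = M * (1 / (1 + (j:ℝ)) ^ 2) := by field_simp
    refine (sum_le_sum hfib).trans ?_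
    rw [← mul_sum]
    have := mul_le_mul_of_nonneg_left (sum_inv_sq_le N) hM.le
    linarith

theorem div_of_theta (γ : ℝ) (ψ θ : ℕ → ℝ) (h0 : ∀ q, 0 ≤ θ q) (h1 : ∀ q, θ q ≤ 1 / 2)
    (hθψ : ∀ q, θ q ≤ ψ q) (hdiv : ¬ Summable fun q => θ q / wt q) :
    volume (W γ ψ)ᶜ = 0 := by
  refine criterion γ ψ θ h0 h1 hθψ fun K ε hε => ?_
  obtain ⟨j, F, hF, hT, hS⟩ := exists_good h0 hdiv K (3 / ε) (by positivity)
  refine ⟨F, hF, lt_of_le_of_lt (by positivity) hS, ?_⟩
  have hg := gs_le h0 F (fun q hq => (hF q hq).2) hT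
  set Ψ := ∑ q ∈ F, θ q with hΨ
  have hΨ0 : 0 < Ψ := lt_of_le_of_lt (by positivity) hS
  have h2 : 3 * 2 ^ j < ε * Ψ := by
    have : 3 / ε * 2 ^ j = 3 * 2 ^ j / ε := by ring
    rw [this, div_lt_iff₀ hε] at hS
    linarith
  have h3 : (1:ℝ) + 2 ^ (j + 1) ≤ 3 * 2 ^ j := by
    have : (1:ℝ) ≤ 2 ^ j := one_le_pow₀ (by norm_num)
    rw [pow_succ]; linarith
  calc Ψ + gs θ F ≤ (1 + 2 ^ (j + 1)) * Ψ := by linarith
    _ ≤ (ε * Ψ) * Ψ := mul_le_mul_of_nonneg_right (h3.trans h2.le) hΨ0.le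
    _ = ε * Ψ ^ 2 := by ring

theorem nd_le_half (t : ℝ) : nd t ≤ 1 / 2 := abs_sub_round t

/-- extra divergence by the factor `τ (log τ)²`, for every real shift -/
theorem main_div (γ : ℝ) (ψ : ℕ → ℝ) (hψ : ∀ q, 0 ≤ ψ q)
    (hdiv : ¬ Summable fun q => ψ q / wt q) : volume (W γ ψ)ᶜ = 0 := by
  by_cases hinf : {q : ℕ | 1 / 2 < ψ q}.Infinite
  · have : W γ ψ = Set.univ := by
      rw [Set.eq_univ_iff_forall]
      intro x
      have h1 : ({q : ℕ | 1 / 2 < ψ q} \ {0}).Infinite := hinf.sdiff (Set.finite_singleton 0)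
      refine h1.mono fun q hq => ⟨?_, lt_of_le_of_lt (nd_le_half _) hq.1⟩
      have : q ≠ 0 := hq.2
      omega
    rw [this, Set.compl_univ, measure_empty]
  · have hfin := Set.not_infinite.1 hinf
    refine div_of_theta γ ψ (fun q => min (ψ q) (1 / 2)) (fun q => le_min (hψ q) (by norm_num))
      (fun q => min_le_right _ _) (fun q => min_le_left _ _) fun hs => hdiv ?_
    have h2 : ∀ᶠ q in Filter.cofinite, ψ q / wt q = min (ψ q) (1 / 2) / wt q := by
      have h3 : ∀ᶠ q in Filter.cofinite, q ∉ {q : ℕ | 1 / 2 < ψ q} := hfin.eventually_cofinite_notMem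
      filter_upwards [h3] with q hq
      have : ψ q ≤ 1 / 2 := not_lt.1 hq
      rw [min_eq_left this]
    exact (summable_congr_cofinite h2).2 hs

/-- Q1 for every real shift when the support has boundedly many divisors -/
theorem main_bdd (γ : ℝ) (ψ : ℕ → ℝ) (hψ : ∀ q, 0 ≤ ψ q) (T : ℕ)
    (hT : ∀ q, 1 ≤ q → ψ q ≠ 0 → q.divisors.card ≤ T)
    (hdiv : ¬ Summable fun q : ℕ => (Nat.totient q : ℝ) / q * ψ q) : volume (W γ ψ)ᶜ = 0 := by
  refine main_div γ ψ hψ fun hs => hdiv ?_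
  set C : ℝ := T * (1 + (Nat.log 2 T : ℝ)) ^ 2 with hC
  refine Summable.of_nonneg_of_le (fun q => by have := hψ q; positivity) (fun q => ?_)
    (hs.mul_left C)
  rcases Nat.eq_zero_or_pos q with hq | hq
  · subst hq
    simp only [Nat.cast_zero, div_zero, zero_mul]
    have := hψ 0
    unfold wt
    positivity
  · by_cases h0 : ψ q = 0
    · rw [h0]; simp
    · have h1 := hT q hq h0
      have hqR : (0:ℝ) < q := by exact_mod_cast hq
      have h2 : (Nat.totient q : ℝ) / q ≤ 1 := by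
        rw [div_le_one hqR]; exact_mod_cast Nat.totient_le q
      have hc : 0 < q.divisors.card := card_pos.2 ⟨1, Nat.mem_divisors.2 ⟨one_dvd _, by omega⟩⟩
      have hcR : (0:ℝ) < q.divisors.card := by exact_mod_cast hc
      have h3 : wt q ≤ C := by
        unfold wt
        rw [hC]
        have h4 : (q.divisors.card : ℝ) ≤ T := by exact_mod_cast h1
        have h5 : (Nat.log 2 q.divisors.card : ℝ) ≤ Nat.log 2 T := by
          exact_mod_cast Nat.log_mono_right h1
        gcongr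
      have hw : 0 < wt q := by unfold wt; positivity
      calc (Nat.totient q : ℝ) / q * ψ q ≤ 1 * ψ q := mul_le_mul_of_nonneg_right h2 (hψ q)
        _ = ψ q := one_mul _
        _ = wt q * (ψ q / wt q) := by field_simp
        _ ≤ C * (ψ q / wt q) := mul_le_mul_of_nonneg_right h3 (div_nonneg (hψ q) hw.le)

end

end Vale.Agent.P028A
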