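import Vale.Agent.Lib.P028A.Count

/-! P028: integrals of the indicators and of their products. -/

namespace Vale.Agent.P028A

open Finset MeasureTheory

noncomputable section

theorem measurable_nd : Measurable nd := by
  have : nd = fun t : ℝ => |t - (⌊t + 1 / 2⌋ : ℤ)| := by
    funext t; unfold nd; rw [round_eq]
  rw [this]
  have h1 : Measurable (fun t : ℝ => ((⌊t + 1 / 2⌋ : ℤ) : ℝ)) :=
    (measurable_from_top (f := fun n : ℤ => (n : ℝ))).comp
      (Int.measurable_floor.comp (measurable_id.add_const _))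
  exact (measurable_id.sub h1).abs

theorem measurable_hh (θ : ℝ) : Measurable (hh θ) := by
  unfold hh
  exact Measurable.ite (measurableSet_lt measurable_nd measurable_const) measurable_const
    measurable_const

theorem hh_periodic (θ : ℝ) : Function.Periodic (hh θ) 1 := by
  intro t
  have := hh_add_int θ t 1
  push_cast at this
  exact this

theorem ii {f : ℝ → ℝ} (hm : Measurable f) (C : ℝ) (hb : ∀ x, |f x| ≤ C) (a b : ℝ) :
    IntervalIntegrable f volume a b := by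
  refine (intervalIntegrable_const (c := C)).mono_fun hm.aestronglyMeasurable ?_
  filter_upwards with x
  rw [Real.norm_eq_abs, Real.norm_eq_abs]
  exact (hb x).trans (le_abs_self C)

theorem hh_abs (θ t : ℝ) : |hh θ t| ≤ 1 := by
  rw [abs_of_nonneg (hh_nonneg θ t)]; exact hh_le_one θ t

theorem ii_hh (θ a b : ℝ) : IntervalIntegrable (hh θ) volume a b :=
  ii (measurable_hh θ) 1 (hh_abs θ) a b

theorem nd_eq {x : ℝ} (h1 : -(1 / 2) < x) (h2 : x ≤ 1 / 2) : nd x = |x| := by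
  unfold nd
  rw [round_eq]
  rcases h2.lt_or_eq with h3 | h3
  · have : ⌊x + 1 / 2⌋ = 0 := by
      rw [Int.floor_eq_zero_iff]; constructor <;> linarith
    rw [this]; simp
  · rw [h3]; norm_num

theorem integral_hh {θ : ℝ} (h0 : 0 ≤ θ) (h1 : θ ≤ 1 / 2) (a : ℝ) :
    ∫ t in a..(a + 1), hh θ t = 2 * θ := by
  rw [(hh_periodic θ).intervalIntegral_add_eq a (-(1 / 2))]
  rw [show -(1 / 2 : ℝ) + 1 = 1 / 2 by norm_num,
    intervalIntegral.integral_of_le (by norm_num)]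
  have e1 : ∫ t in Set.Ioc (-(1 / 2) : ℝ) (1 / 2), hh θ t
      = ∫ t in Set.Ioc (-(1 / 2) : ℝ) (1 / 2), (Set.Ioo (-θ) θ).indicator (1 : ℝ → ℝ) t := by
    refine setIntegral_congr_fun measurableSet_Ioc fun t ht => ?_
    show hh θ t = (Set.Ioo (-θ) θ).indicator (1 : ℝ → ℝ) t
    unfold hh
    rw [nd_eq ht.1 ht.2]
    by_cases h : |t| < θ
    · have h5 : t ∈ Set.Ioo (-θ) θ := abs_lt.1 h
      rw [if_pos h, Set.indicator_of_mem h5]; rfl
    · have h5 : t ∉ Set.Ioo (-θ) θ := fun h2 => h (abs_lt.2 h2)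
      rw [if_neg h, Set.indicator_of_notMem h5]
  rw [e1, integral_indicator_one measurableSet_Ioo]
  rw [measureReal_restrict_apply measurableSet_Ioo]
  have e2 : Set.Ioo (-θ) θ ∩ Set.Ioc (-(1 / 2) : ℝ) (1 / 2) = Set.Ioo (-θ) θ := by
    apply Set.inter_eq_left.2
    intro x hx
    exact ⟨by linarith [hx.1], by linarith [hx.2]⟩
  rw [e2, measureReal_def, Real.volume_Ioo, ENNReal.toReal_ofReal (by linarith)]
  ring

/-- the function of the set `‖q x - γ‖ < θ` -/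
def FF (γ θ : ℝ) (q : ℕ) (x : ℝ) : ℝ := hh θ (q * x - γ)

theorem FF_nonneg (γ θ : ℝ) (q : ℕ) (x : ℝ) : 0 ≤ FF γ θ q x := hh_nonneg _ _

theorem FF_le_one (γ θ : ℝ) (q : ℕ) (x : ℝ) : FF γ θ q x ≤ 1 := hh_le_one _ _

theorem measurable_FF (γ θ : ℝ) (q : ℕ) : Measurable (FF γ θ q) :=
  (measurable_hh θ).comp ((measurable_id.const_mul _).sub_const _)

theorem FF_sq (γ θ : ℝ) (q : ℕ) (x : ℝ) : FF γ θ q x * FF γ θ q x = FF γ θ q x := by
  unfold FF hh; split_ifs <;> norm_num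

theorem integral_FF {γ θ : ℝ} (h0 : 0 ≤ θ) (h1 : θ ≤ 1 / 2) {q : ℕ} (hq : 0 < q) :
    ∫ x in (0:ℝ)..1, FF γ θ q x = 2 * θ := by
  have hq' : (q:ℝ) ≠ 0 := by positivity
  unfold FF
  rw [intervalIntegral.integral_comp_mul_sub (fun t => hh θ t) hq' γ]
  have e1 : ∫ t in ((q:ℝ) * 0 - γ)..((q:ℝ) * 1 - γ), hh θ t = q * (2 * θ) := by
    have h2 := (hh_periodic θ).intervalIntegral_add_zsmul_eq (q : ℤ) (-γ)
      (fun t₁ t₂ => ii_hh θ t₁ t₂)
    have e2 : (q:ℝ) * 0 - γ = -γ := by ring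
    have e3 : (q:ℝ) * 1 - γ = -γ + (q : ℤ) • (1:ℝ) := by simp; ring
    rw [e2, e3, h2, integral_hh h0 h1]
    simp
  rw [e1, smul_eq_mul]
  field_simp

theorem integral_FF_short {γ θ : ℝ} (h0 : 0 ≤ θ) (h1 : θ ≤ 1 / 2) {r : ℕ} (hr : 0 < r) :
    ∫ x in (0:ℝ)..(1 / r), FF γ θ r x = 2 * θ / r := by
  have hr' : (r:ℝ) ≠ 0 := by positivity
  unfold FF
  rw [intervalIntegral.integral_comp_mul_sub (fun t => hh θ t) hr' γ]
  have e2 : (r:ℝ) * 0 - γ = -γ := by ring
  have e3 : (r:ℝ) * (1 / r) - γ = -γ + 1 := by field_simp; ring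
  rw [e2, e3, integral_hh h0 h1, smul_eq_mul]
  field_simp

/-- overlap estimate, valid for every real shift -/
theorem overlap {γ θ₁ θ₂ : ℝ} (h1 : 0 ≤ θ₁) (h2 : 0 ≤ θ₂) (h2' : θ₂ ≤ 1 / 2) (q : ℕ)
    {r : ℕ} (hr : 0 < r) :
    ∫ x in (0:ℝ)..1, FF γ θ₁ q x * FF γ θ₂ r x ≤ 4 * θ₁ * θ₂ + 2 * θ₂ * Nat.gcd q r / r := by
  have hr' : (0:ℝ) < r := by exact_mod_cast hr
  set P : ℝ → ℝ := fun x => FF γ θ₁ q x * FF γ θ₂ r x with hP
  have hPm : Measurable P := (measurable_FF γ θ₁ q).mul (measurable_FF γ θ₂ r)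
  have hPb : ∀ x, |P x| ≤ 1 := by
    intro x
    simp only [hP]
    rw [abs_of_nonneg (mul_nonneg (FF_nonneg _ _ _ _) (FF_nonneg _ _ _ _))]
    exact mul_le_one₀ (FF_le_one _ _ _ _) (FF_nonneg _ _ _ _) (FF_le_one _ _ _ _)
  have e1 : ∑ b ∈ range r, ∫ x in ((b:ℝ) / r)..(((b + 1 : ℕ) : ℝ) / r), P x
      = ∫ x in (0:ℝ)..1, P x := by
    have := intervalIntegral.sum_integral_adjacent_intervals (f := P) (μ := volume)
      (a := fun b : ℕ => (b:ℝ) / r) (n := r) (fun k _ => ii hPm 1 hPb _ _)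
    rw [this]
    simp only [Nat.cast_zero, zero_div]
    rw [div_self hr'.ne']
  have e2 : ∀ b ∈ range r, ∫ x in ((b:ℝ) / r)..(((b + 1 : ℕ) : ℝ) / r), P x
      = ∫ x in (0:ℝ)..(1 / r), P (x + b / r) := by
    intro b _
    rw [intervalIntegral.integral_comp_add_right]
    congr 1
    · ring
    · push_cast; ring
  have e6 : ∫ x in (0:ℝ)..(1 / r), ∑ b ∈ range r, P (x + b / r)
      = ∑ b ∈ range r, ∫ x in (0:ℝ)..(1 / r), P (x + b / r) := by
    refine intervalIntegral.integral_finsetSum fun b _ => ?_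
    exact ii (f := fun x => P (x + b / r)) (hPm.comp (measurable_id.add_const _)) 1
      (fun x => hPb _) _ _
  rw [← e1, sum_congr rfl e2, ← e6]
  have hpt : ∀ x, ∑ b ∈ range r, P (x + b / r)
      ≤ (2 * θ₁ * r + Nat.gcd q r) * FF γ θ₂ r x := by
    intro x
    have e3 : ∀ b ∈ range r, P (x + b / r)
        = hh θ₁ ((q * x - γ) + q * b / r) * FF γ θ₂ r x := by
      intro b _
      simp only [hP]
      unfold FF
      have e4 : (r:ℝ) * (x + b / r) - γ = (r * x - γ) + ((b : ℤ) : ℝ) := by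
        push_cast; field_simp; ring
      have e5 : (q:ℝ) * (x + b / r) - γ = (q * x - γ) + q * b / r := by ring
      rw [e4, e5, hh_add_int]
    rw [sum_congr rfl e3, ← sum_mul]
    exact mul_le_mul_of_nonneg_right (count_le h1 _ hr) (FF_nonneg _ _ _ _)
  have h3 : ∫ x in (0:ℝ)..(1 / r), ∑ b ∈ range r, P (x + b / r)
      ≤ ∫ x in (0:ℝ)..(1 / r), (2 * θ₁ * r + Nat.gcd q r) * FF γ θ₂ r x := by
    refine intervalIntegral.integral_mono_on (by positivity) ?_ ?_ fun x _ => hpt x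
    · refine ii ?_ r ?_ _ _
      · exact Finset.measurable_fun_sum _ fun b _ => hPm.comp (measurable_id.add_const _)
      · intro x
        refine (abs_sum_le_sum_abs _ _).trans ?_
        refine (sum_le_sum fun b _ => hPb _).trans (le_of_eq ?_)
        simp
    · exact (ii (measurable_FF γ θ₂ r) 1 (fun x => hh_abs _ _) _ _).const_mul _
  refine h3.trans (le_of_eq ?_)
  rw [intervalIntegral.integral_const_mul, integral_FF_short h2 h2' hr]
  field_simp
  ring

end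

end Vale.Agent.P028A
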