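import Vale.Agent.Lib.P028A.Div
import Vale.Agent.Lib.P028A.DefsM

/-! P028: moving targets (the shift may depend on the denominator). -/

namespace Vale.Agent.P028A

open Finset MeasureTheory

noncomputable section

/-- overlap estimate, valid for every real shift -/
theorem overlapM {γ₁ γ₂ θ₁ θ₂ : ℝ} (h1 : 0 ≤ θ₁) (h2 : 0 ≤ θ₂) (h2' : θ₂ ≤ 1 / 2) (q : ℕ)
    {r : ℕ} (hr : 0 < r) :
    ∫ x in (0:ℝ)..1, FF γ₁ θ₁ q x * FF γ₂ θ₂ r x ≤ 4 * θ₁ * θ₂ + 2 * θ₂ * Nat.gcd q r / r := by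
  have hr' : (0:ℝ) < r := by exact_mod_cast hr
  set P : ℝ → ℝ := fun x => FF γ₁ θ₁ q x * FF γ₂ θ₂ r x with hP
  have hPm : Measurable P := (measurable_FF γ₁ θ₁ q).mul (measurable_FF γ₂ θ₂ r)
  have hPb : ∀ x, |P x| ≤ 1 := by
    intro x
    simp only [hP]
    rw [abs_of_nonneg (mul_nonneg (FF_nonneg _ _ _ _) (FF_nonneg _ _ _ _))]
    exact mul_le_one₀ (FF_le_one _ _ _ _) (FF_nonneg _ _ _ _) (FF_le_one _ _ _ _)
  have e1 : ∑ b ∈ range r, ∫ x in ((b:ℝ) / r)..(((b + 1 : ℕ) : ℝ) / r), P x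
      = ∫ x in (0:ℝ)..1, P x := by
    have := intervalIntegral.sum_integral_adjacent_intervals (f := P) (μ := volume)
      (a := fun b : ℕ => (b:ℝ) / r) (n := r) (fun k _ => ii hPm 1 hPb _ _)
    rw [this]
    simp only [Nat.cast_zero, zero_div]
    rw [div_self hr'.ne']
  have e2 : ∀ b ∈ range r, ∫ x in ((b:ℝ) / r)..(((b + 1 : ℕ) : ℝ) / r), P x
      = ∫ x in (0:ℝ)..(1 / r), P (x + b / r) := by
    intro b _
    rw [intervalIntegral.integral_comp_add_right]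
    congr 1
    · ring
    · push_cast; ring
  have e6 : ∫ x in (0:ℝ)..(1 / r), ∑ b ∈ range r, P (x + b / r)
      = ∑ b ∈ range r, ∫ x in (0:ℝ)..(1 / r), P (x + b / r) := by
    refine intervalIntegral.integral_finsetSum fun b _ => ?_
    exact ii (f := fun x => P (x + b / r)) (hPm.comp (measurable_id.add_const _)) 1
      (fun x => hPb _) _ _
  rw [← e1, sum_congr rfl e2, ← e6]
  have hpt : ∀ x, ∑ b ∈ range r, P (x + b / r)
      ≤ (2 * θ₁ * r + Nat.gcd q r) * FF γ₂ θ₂ r x := by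
    intro x
    have e3 : ∀ b ∈ range r, P (x + b / r)
        = hh θ₁ ((q * x - γ₁) + q * b / r) * FF γ₂ θ₂ r x := by
      intro b _
      simp only [hP]
      unfold FF
      have e4 : (r:ℝ) * (x + b / r) - γ₂ = (r * x - γ₂) + ((b : ℤ) : ℝ) := by
        push_cast; field_simp; ring
      have e5 : (q:ℝ) * (x + b / r) - γ₁ = (q * x - γ₁) + q * b / r := by ring
      rw [e4, e5, hh_add_int]
    rw [sum_congr rfl e3, ← sum_mul]
    exact mul_le_mul_of_nonneg_right (count_le h1 _ hr) (FF_nonneg _ _ _ _)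
  have h3 : ∫ x in (0:ℝ)..(1 / r), ∑ b ∈ range r, P (x + b / r)
      ≤ ∫ x in (0:ℝ)..(1 / r), (2 * θ₁ * r + Nat.gcd q r) * FF γ₂ θ₂ r x := by
    refine intervalIntegral.integral_mono_on (by positivity) ?_ ?_ fun x _ => hpt x
    · refine ii ?_ r ?_ _ _
      · exact Finset.measurable_fun_sum _ fun b _ => hPm.comp (measurable_id.add_const _)
      · intro x
        refine (abs_sum_le_sum_abs _ _).trans ?_
        refine (sum_le_sum fun b _ => hPb _).trans (le_of_eq ?_)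
        simp
    · exact (ii (measurable_FF γ₂ θ₂ r) 1 (fun x => hh_abs _ _) _ _).const_mul _
  refine h3.trans (le_of_eq ?_)
  rw [intervalIntegral.integral_const_mul, integral_FF_short h2 h2' hr]
  field_simp
  ring

theorem second_momentM {γ : ℕ → ℝ} {θ : ℕ → ℝ} (F : Finset ℕ) (hF : ∀ q ∈ F, 1 ≤ q)
    (h0 : ∀ q ∈ F, 0 ≤ θ q) (h1 : ∀ q ∈ F, θ q ≤ 1 / 2) :
    ∫ x in (0:ℝ)..1, (∑ q ∈ F, FF (γ q) (θ q) q x - 2 * ∑ q ∈ F, θ q) ^ 2
      ≤ 2 * ∑ q ∈ F, θ q + 4 * gs θ F := by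
  set Ψ := ∑ q ∈ F, θ q with hΨ
  set I : ℕ → ℕ → ℝ := fun q r => ∫ x in (0:ℝ)..1, FF (γ q) (θ q) q x * FF (γ r) (θ r) r x with hI
  have hprod : ∀ q r, IntervalIntegrable (fun x => FF (γ q) (θ q) q x * FF (γ r) (θ r) r x) volume 0 1 :=
    fun q r => ii (f := fun x => FF (γ q) (θ q) q x * FF (γ r) (θ r) r x) ((measurable_FF (γ q) (θ q) q).mul (measurable_FF (γ r) (θ r) r)) 1 (fun x => by
      rw [abs_of_nonneg (mul_nonneg (FF_nonneg _ _ _ _) (FF_nonneg _ _ _ _))]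
      exact mul_le_one₀ (FF_le_one _ _ _ _) (FF_nonneg _ _ _ _) (FF_le_one _ _ _ _)) _ _
  have hone : ∀ q, IntervalIntegrable (fun x => FF (γ q) (θ q) q x) volume 0 1 :=
    fun q => ii (measurable_FF (γ q) (θ q) q) 1 (fun x => hh_abs _ _) _ _
  have hrow : ∀ q, IntervalIntegrable (fun x => ∑ r ∈ F, FF (γ q) (θ q) q x * FF (γ r) (θ r) r x)
      volume 0 1 := fun q =>
    ii_sum F (fun r x => FF (γ q) (θ q) q x * FF (γ r) (θ r) r x) fun r _ => hprod q r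
  have hall : IntervalIntegrable (fun x => ∑ q ∈ F, ∑ r ∈ F, FF (γ q) (θ q) q x * FF (γ r) (θ r) r x)
      volume 0 1 :=
    ii_sum F (fun q x => ∑ r ∈ F, FF (γ q) (θ q) q x * FF (γ r) (θ r) r x) fun q _ => hrow q
  have hlin : IntervalIntegrable (fun x => 4 * Ψ * ∑ q ∈ F, FF (γ q) (θ q) q x) volume 0 1 :=
    (ii_sum F (fun q x => FF (γ q) (θ q) q x) fun q _ => hone q).const_mul _
  have e1 : ∫ x in (0:ℝ)..1, (∑ q ∈ F, FF (γ q) (θ q) q x - 2 * Ψ) ^ 2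
      = ∑ q ∈ F, ∑ r ∈ F, I q r - 4 * Ψ * ∑ q ∈ F, (∫ x in (0:ℝ)..1, FF (γ q) (θ q) q x)
        + 4 * Ψ ^ 2 := by
    have hpt : (fun x => (∑ q ∈ F, FF (γ q) (θ q) q x - 2 * Ψ) ^ 2)
        = fun x => (∑ q ∈ F, ∑ r ∈ F, FF (γ q) (θ q) q x * FF (γ r) (θ r) r x
          - 4 * Ψ * ∑ q ∈ F, FF (γ q) (θ q) q x) + 4 * Ψ ^ 2 := by
      funext x
      rw [← sum_mul_sum]
      ring
    rw [hpt, intervalIntegral.integral_add, intervalIntegral.integral_sub,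
      intervalIntegral.integral_finsetSum, intervalIntegral.integral_const_mul,
      intervalIntegral.integral_finsetSum, intervalIntegral.integral_const]
    · simp only [sub_zero, one_smul, hI]
      congr 2
      exact sum_congr rfl fun q _ => intervalIntegral.integral_finsetSum fun r _ => hprod q r
    · exact fun q _ => hone q
    · exact fun q _ => hrow q
    · exact hall
    · exact hlin
    · exact hall.sub hlin
    · exact intervalIntegrable_const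
  have e2 : ∑ q ∈ F, (∫ x in (0:ℝ)..1, FF (γ q) (θ q) q x) = 2 * Ψ := by
    rw [hΨ, mul_sum]
    exact sum_congr rfl fun q hq => integral_FF (h0 q hq) (h1 q hq) (hF q hq)
  have hsym : ∀ q r, I q r = I r q := by
    intro q r
    simp only [hI]
    congr 1
    funext x
    ring
  have hb : ∀ q ∈ F, ∀ r ∈ F, I q r ≤ 4 * θ q * θ r + (if q = r then 2 * θ q else 0)
      + (if q < r then 2 * (θ r * Nat.gcd q r / r) else 0)
      + (if r < q then 2 * (θ q * Nat.gcd r q / q) else 0) := by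
    intro q hq r hr
    rcases lt_trichotomy q r with h | h | h
    · rw [if_neg h.ne, if_pos h, if_neg (by omega)]
      have := overlapM (γ₁ := γ q) (γ₂ := γ r) (h0 q hq) (h0 r hr) (h1 r hr) q (hF r hr)
      refine this.trans (le_of_eq ?_)
      ring
    · subst h
      rw [if_pos rfl, if_neg (lt_irrefl q)]
      have e3 : I q q = 2 * θ q := by
        simp only [hI]
        rw [← integral_FF (γ := γ q) (h0 q hq) (h1 q hq) (hF q hq)]
        congr 1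
        funext x
        exact FF_sq _ _ _ _
      rw [e3]
      have := mul_nonneg (h0 q hq) (h0 q hq)
      linarith
    · rw [if_neg h.ne', if_neg (by omega), if_pos h, hsym]
      have := overlapM (γ₁ := γ r) (γ₂ := γ q) (h0 r hr) (h0 q hq) (h1 q hq) r (hF q hq)
      refine this.trans (le_of_eq ?_)
      ring
  have h2 : ∑ q ∈ F, ∑ r ∈ F, I q r ≤ 4 * Ψ ^ 2 + 2 * Ψ + 4 * gs θ F := by
    refine (sum_le_sum fun q hq => sum_le_sum fun r hr => hb q hq r hr).trans (le_of_eq ?_)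
    simp only [sum_add_distrib]
    have a1 : ∑ q ∈ F, ∑ r ∈ F, 4 * θ q * θ r = 4 * Ψ ^ 2 := by
      rw [hΨ, sq, sum_mul_sum, mul_sum]
      refine sum_congr rfl fun q _ => ?_
      rw [mul_sum]
      exact sum_congr rfl fun r _ => by ring
    have a2 : ∑ q ∈ F, ∑ r ∈ F, (if q = r then 2 * θ q else 0) = 2 * Ψ := by
      rw [hΨ, mul_sum]
      refine sum_congr rfl fun q hq => ?_
      rw [sum_ite_eq, if_pos hq]
    have a4 : ∑ q ∈ F, ∑ r ∈ F, (if r < q then 2 * (θ q * Nat.gcd r q / q) else 0)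
        = 2 * gs θ F := by
      unfold gs
      rw [mul_sum]
      refine sum_congr rfl fun q _ => ?_
      rw [sum_filter, mul_sum]
      refine sum_congr rfl fun r _ => ?_
      split_ifs <;> simp
    have a3 : ∑ q ∈ F, ∑ r ∈ F, (if q < r then 2 * (θ r * Nat.gcd q r / r) else 0)
        = 2 * gs θ F := by
      rw [sum_comm]
      exact a4
    rw [a1, a2, a3, a4]; ring
  rw [e1, e2]
  linarith

theorem chebM {γ : ℕ → ℝ} {θ : ℕ → ℝ} (F : Finset ℕ) (hF : ∀ q ∈ F, 1 ≤ q)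
    (h0 : ∀ q ∈ F, 0 ≤ θ q) (h1 : ∀ q ∈ F, θ q ≤ 1 / 2) (hpos : 0 < ∑ q ∈ F, θ q) {ε : ℝ}
    (hε : ∑ q ∈ F, θ q + gs θ F ≤ ε * (∑ q ∈ F, θ q) ^ 2) :
    volume (Set.Ioc (0:ℝ) 1 ∩ {x | ∀ q ∈ F, ¬ nd (q * x - γ q) < θ q}) ≤ ENNReal.ofReal ε := by
  have h2 := second_momentM (γ := γ) F hF h0 h1
  set Ψ := ∑ q ∈ F, θ q with hΨ
  have hg0 : 0 ≤ gs θ F := sum_nonneg fun r hr => sum_nonneg fun q _ => by
    have := h0 r hr
    positivity
  set S : ℝ → ℝ := fun x => ∑ q ∈ F, FF (γ q) (θ q) q x with hS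
  have hSm : Measurable S := Finset.measurable_fun_sum _ fun q _ => measurable_FF (γ q) (θ q) q
  set μ := volume.restrict (Set.Ioc (0:ℝ) 1) with hμ
  have hint : Integrable (fun x => (S x - 2 * Ψ) ^ 2) μ := by
    have : IntervalIntegrable (fun x => (S x - 2 * Ψ) ^ 2) volume 0 1 := by
      refine ii ((hSm.sub_const _).pow_const 2) ((F.card + 2 * Ψ) ^ 2) (fun x => ?_) _ _
      rw [abs_of_nonneg (sq_nonneg _)]
      have hS0 : 0 ≤ S x := sum_nonneg fun q _ => FF_nonneg _ _ _ _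
      have hS1 : S x ≤ F.card := by
        refine (sum_le_sum fun q _ => FF_le_one _ _ _ _).trans (le_of_eq ?_)
        simp
      have h3 : (S x - 2 * Ψ) ^ 2 ≤ (F.card + 2 * Ψ) ^ 2 := by
        apply sq_le_sq'
        · linarith
        · linarith
      exact h3
    rw [intervalIntegrable_iff_integrableOn_Ioc_of_le (by norm_num)] at this
    exact this
  have h3 := mul_meas_ge_le_integral_of_nonneg (μ := μ)
    (Filter.Eventually.of_forall fun x => sq_nonneg (S x - 2 * Ψ)) hint ((2 * Ψ) ^ 2)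
  rw [intervalIntegral.integral_of_le (by norm_num)] at h2
  have h4 : (2 * Ψ) ^ 2 * μ.real {x | (2 * Ψ) ^ 2 ≤ (S x - 2 * Ψ) ^ 2} ≤ 4 * (ε * Ψ ^ 2) := by
    refine h3.trans (h2.trans ?_)
    linarith
  have h5 : μ.real {x | (2 * Ψ) ^ 2 ≤ (S x - 2 * Ψ) ^ 2} ≤ ε := by
    have h6 : 0 < 4 * Ψ ^ 2 := by positivity
    have h7 : 4 * Ψ ^ 2 * μ.real {x | (2 * Ψ) ^ 2 ≤ (S x - 2 * Ψ) ^ 2} ≤ 4 * Ψ ^ 2 * ε := by
      linarith
    exact le_of_mul_le_mul_left h7 h6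
  have hms : MeasurableSet {x | (2 * Ψ) ^ 2 ≤ (S x - 2 * Ψ) ^ 2} :=
    measurableSet_le measurable_const ((hSm.sub_const _).pow_const 2)
  have h8 : μ {x | (2 * Ψ) ^ 2 ≤ (S x - 2 * Ψ) ^ 2} ≤ ENNReal.ofReal ε := by
    rw [← ENNReal.ofReal_toReal (measure_ne_top μ {x | (2 * Ψ) ^ 2 ≤ (S x - 2 * Ψ) ^ 2})]
    exact ENNReal.ofReal_le_ofReal h5
  rw [hμ, Measure.restrict_apply hms] at h8
  refine le_trans (measure_mono ?_) h8
  rintro x ⟨hx1, hx2⟩
  refine ⟨?_, hx1⟩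
  have hS0 : S x = 0 := by
    refine sum_eq_zero fun q hq => ?_
    unfold FF hh
    rw [if_neg (hx2 q hq)]
  show (2 * Ψ) ^ 2 ≤ (S x - 2 * Ψ) ^ 2
  rw [hS0]
  exact le_of_eq (by ring)

/-- gcd-sum criterion -/
theorem criterionM (γ : ℕ → ℝ) (ψ θ : ℕ → ℝ) (h0 : ∀ q, 0 ≤ θ q) (h1 : ∀ q, θ q ≤ 1 / 2)
    (hθψ : ∀ q, θ q ≤ ψ q)
    (H : ∀ (K : ℕ) (ε : ℝ), 0 < ε → ∃ F : Finset ℕ, (∀ q ∈ F, K ≤ q ∧ 1 ≤ q) ∧
      0 < ∑ q ∈ F, θ q ∧ ∑ q ∈ F, θ q + gs θ F ≤ ε * (∑ q ∈ F, θ q) ^ 2) :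
    volume (WM γ ψ)ᶜ = 0 := by
  -- tails
  have hA : ∀ K : ℕ, volume (Set.Ioc (0:ℝ) 1 ∩
      {x | ∀ q : ℕ, K ≤ q → 1 ≤ q → ¬ nd (q * x - γ q) < ψ q}) = 0 := by
    intro K
    refine le_antisymm (ENNReal.le_of_forall_pos_le_add fun e he _ => ?_) bot_le
    obtain ⟨F, hF, hp, hs⟩ := H K e (by exact_mod_cast he)
    have := chebM (γ := γ) F (fun q hq => (hF q hq).2) (fun q _ => h0 q) (fun q _ => h1 q) hp hs
    rw [zero_add]
    refine le_trans (measure_mono ?_) (this.trans (le_of_eq (ENNReal.ofReal_coe_nnreal)))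
    rintro x ⟨hx1, hx2⟩
    exact ⟨hx1, fun q hq hlt => hx2 q (hF q hq).1 (hF q hq).2 (lt_of_lt_of_le hlt (hθψ q))⟩
  have hN0 : volume (Set.Ioc (0:ℝ) 1 ∩ (WM γ ψ)ᶜ) = 0 := by
    refine measure_mono_null ?_ (measure_iUnion_null hA)
    rintro x ⟨hx1, hx2⟩
    have hfin : {q : ℕ | 1 ≤ q ∧ nd (q * x - γ q) < ψ q}.Finite := Set.not_infinite.1 hx2
    obtain ⟨K, hK⟩ := hfin.bddAbove
    rw [Set.mem_iUnion]
    refine ⟨K + 1, hx1, fun q hq1 hq2 hlt => ?_⟩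
    have := hK (show q ∈ {q : ℕ | 1 ≤ q ∧ nd (q * x - γ q) < ψ q} from ⟨hq2, hlt⟩)
    omega
  have hper : ∀ (x : ℝ) (n : ℤ), x ∈ WM γ ψ ↔ x - n ∈ WM γ ψ := by
    intro x n
    unfold WM
    simp only [Set.mem_ofPred_eq]
    have : ∀ q : ℕ, nd (q * (x - n) - γ q) = nd (q * x - γ q) := by
      intro q
      have e : (q:ℝ) * x - γ q = (q * (x - n) - γ q) + ((q * n : ℤ) : ℝ) := by push_cast; ring
      rw [e, nd_add_int]
    simp only [this]
  have hcov : (WM γ ψ)ᶜ ⊆ ⋃ n : ℤ, (fun x : ℝ => x + (-(n:ℝ))) ⁻¹' (Set.Ioc (0:ℝ) 1 ∩ (WM γ ψ)ᶜ) := by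
    intro x hx
    rw [Set.mem_iUnion]
    refine ⟨⌈x⌉ - 1, ?_⟩
    show x + (-((⌈x⌉ - 1 : ℤ) : ℝ)) ∈ Set.Ioc (0:ℝ) 1 ∩ (WM γ ψ)ᶜ
    refine ⟨?_, ?_⟩
    · have h2 := Int.le_ceil x
      have h3 := Int.ceil_lt_add_one x
      push_cast
      constructor <;> linarith
    · intro hc
      apply hx
      rw [hper x (⌈x⌉ - 1)]
      rwa [← sub_eq_add_neg] at hc
  refine measure_mono_null hcov (measure_iUnion_null fun n => ?_)
  rw [measure_preimage_add_right]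
  exact hN0

theorem div_of_thetaM (γ : ℕ → ℝ) (ψ θ : ℕ → ℝ) (h0 : ∀ q, 0 ≤ θ q) (h1 : ∀ q, θ q ≤ 1 / 2)
    (hθψ : ∀ q, θ q ≤ ψ q) (hdiv : ¬ Summable fun q => θ q / wt q) :
    volume (WM γ ψ)ᶜ = 0 := by
  refine criterionM γ ψ θ h0 h1 hθψ fun K ε hε => ?_
  obtain ⟨j, F, hF, hT, hS⟩ := exists_good h0 hdiv K (3 / ε) (by positivity)
  refine ⟨F, hF, lt_of_le_of_lt (by positivity) hS, ?_⟩
  have hg := gs_le h0 F (fun q hq => (hF q hq).2) hT
  set Ψ := ∑ q ∈ F, θ q with hΨ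
  have hΨ0 : 0 < Ψ := lt_of_le_of_lt (by positivity) hS
  have h2 : 3 * 2 ^ j < ε * Ψ := by
    have : 3 / ε * 2 ^ j = 3 * 2 ^ j / ε := by ring
    rw [this, div_lt_iff₀ hε] at hS
    linarith
  have h3 : (1:ℝ) + 2 ^ (j + 1) ≤ 3 * 2 ^ j := by
    have : (1:ℝ) ≤ 2 ^ j := one_le_pow₀ (by norm_num)
    rw [pow_succ]; linarith
  calc Ψ + gs θ F ≤ (1 + 2 ^ (j + 1)) * Ψ := by linarith
    _ ≤ (ε * Ψ) * Ψ := mul_le_mul_of_nonneg_right (h3.trans h2.le) hΨ0.le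
    _ = ε * Ψ ^ 2 := by ring

/-- extra divergence by the factor `τ (log τ)²`, for every real shift -/
theorem main_divM (γ : ℕ → ℝ) (ψ : ℕ → ℝ) (hψ : ∀ q, 0 ≤ ψ q)
    (hdiv : ¬ Summable fun q => ψ q / wt q) : volume (WM γ ψ)ᶜ = 0 := by
  by_cases hinf : {q : ℕ | 1 / 2 < ψ q}.Infinite
  · have : WM γ ψ = Set.univ := by
      rw [Set.eq_univ_iff_forall]
      intro x
      have h1 : ({q : ℕ | 1 / 2 < ψ q} \ {0}).Infinite := hinf.sdiff (Set.finite_singleton 0)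
      refine h1.mono fun q hq => ⟨?_, lt_of_le_of_lt (nd_le_half _) hq.1⟩
      have : q ≠ 0 := hq.2
      omega
    rw [this, Set.compl_univ, measure_empty]
  · have hfin := Set.not_infinite.1 hinf
    refine div_of_thetaM γ ψ (fun q => min (ψ q) (1 / 2)) (fun q => le_min (hψ q) (by norm_num))
      (fun q => min_le_right _ _) (fun q => min_le_left _ _) fun hs => hdiv ?_
    have h2 : ∀ᶠ q in Filter.cofinite, ψ q / wt q = min (ψ q) (1 / 2) / wt q := by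
      have h3 : ∀ᶠ q in Filter.cofinite, q ∉ {q : ℕ | 1 / 2 < ψ q} := hfin.eventually_cofinite_notMem
      filter_upwards [h3] with q hq
      have : ψ q ≤ 1 / 2 := not_lt.1 hq
      rw [min_eq_left this]
    exact (summable_congr_cofinite h2).2 hs

/-- Q1 for every real shift when the support has boundedly many divisors -/
theorem main_bddM (γ : ℕ → ℝ) (ψ : ℕ → ℝ) (hψ : ∀ q, 0 ≤ ψ q) (T : ℕ)
    (hT : ∀ q, 1 ≤ q → ψ q ≠ 0 → q.divisors.card ≤ T)
    (hdiv : ¬ Summable fun q : ℕ => (Nat.totient q : ℝ) / q * ψ q) : volume (WM γ ψ)ᶜ = 0 := by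
  refine main_divM γ ψ hψ fun hs => hdiv ?_
  set C : ℝ := T * (1 + (Nat.log 2 T : ℝ)) ^ 2 with hC
  refine Summable.of_nonneg_of_le (fun q => by have := hψ q; positivity) (fun q => ?_)
    (hs.mul_left C)
  rcases Nat.eq_zero_or_pos q with hq | hq
  · subst hq
    simp only [Nat.cast_zero, div_zero, zero_mul]
    have := hψ 0
    unfold wt
    positivity
  · by_cases h0 : ψ q = 0
    · rw [h0]; simp
    · have h1 := hT q hq h0
      have hqR : (0:ℝ) < q := by exact_mod_cast hq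
      have h2 : (Nat.totient q : ℝ) / q ≤ 1 := by
        rw [div_le_one hqR]; exact_mod_cast Nat.totient_le q
      have hc : 0 < q.divisors.card := card_pos.2 ⟨1, Nat.mem_divisors.2 ⟨one_dvd _, by omega⟩⟩
      have hcR : (0:ℝ) < q.divisors.card := by exact_mod_cast hc
      have h3 : wt q ≤ C := by
        unfold wt
        rw [hC]
        have h4 : (q.divisors.card : ℝ) ≤ T := by exact_mod_cast h1
        have h5 : (Nat.log 2 q.divisors.card : ℝ) ≤ Nat.log 2 T := by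
          exact_mod_cast Nat.log_mono_right h1
        gcongr
      have hw : 0 < wt q := by unfold wt; positivity
      calc (Nat.totient q : ℝ) / q * ψ q ≤ 1 * ψ q := mul_le_mul_of_nonneg_right h2 (hψ q)
        _ = ψ q := one_mul _
        _ = wt q * (ψ q / wt q) := by field_simp
        _ ≤ C * (ψ q / wt q) := mul_le_mul_of_nonneg_right h3 (div_nonneg (hψ q) hw.le)

end

end Vale.Agent.P028A
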